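import Mathlib

/-!
# Counting the shifted grids that separate two points

A grid of side `l` shifted by `i * l / m` (`i < m`) puts `x` into the cell with index
`⌊(x - i * l / m) / l⌋`.  If `|x - y| ≤ R`, at most `m * R / l + 1` of the `m` shifts separate
`x` and `y` (one coordinate), hence at least `m^3 (1 - R/l - 1/m)^3` of the `m^3` shifts of a
three-dimensional grid keep two points with `|x j - y j| ≤ R` in a common cell.
-/

namespace Vale.Agent.H74.P171

theorem shift_count_one (l : ℝ) (hl : 0 < l) (m : ℕ) (hm : 0 < m) (x y R : ℝ)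
    (hxy : |x - y| ≤ R) :
    (((Finset.univ : Finset (Fin m)).filter
        (fun i : Fin m => ⌊(x - (i : ℕ) * l / m) / l⌋ ≠ ⌊(y - (i : ℕ) * l / m) / l⌋)).card : ℝ)
      ≤ m * R / l + 1 := by
  wlog h : x ≤ y generalizing x y
  · have h' := this y x (by rwa [abs_sub_comm]) (le_of_not_ge h)
    have e : ((Finset.univ : Finset (Fin m)).filter
        (fun i : Fin m => ⌊(x - (i : ℕ) * l / m) / l⌋ ≠ ⌊(y - (i : ℕ) * l / m) / l⌋)) =
        ((Finset.univ : Finset (Fin m)).filter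
        (fun i : Fin m => ⌊(y - (i : ℕ) * l / m) / l⌋ ≠ ⌊(x - (i : ℕ) * l / m) / l⌋)) :=
      Finset.filter_congr (fun i _ => ne_comm)
    rw [e]; exact h'
  have hm' : (0 : ℝ) < m := by exact_mod_cast hm
  have hinj : ((Finset.univ : Finset (Fin m)).filter
        (fun i : Fin m => ⌊(x - (i : ℕ) * l / m) / l⌋ ≠ ⌊(y - (i : ℕ) * l / m) / l⌋)).card ≤
      (Finset.Ioc ⌊x * m / l⌋ ⌊y * m / l⌋).card := by
    apply Finset.card_le_card_of_injOn
      (fun i : Fin m => (((i : ℕ) : ℤ)) + (m : ℤ) * ⌊(y - (i : ℕ) * l / m) / l⌋)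
    · intro i hi
      have hi' : ⌊(x - (i : ℕ) * l / m) / l⌋ ≠ ⌊(y - (i : ℕ) * l / m) / l⌋ := by
        simpa using hi
      have hle : ⌊(x - (i : ℕ) * l / m) / l⌋ ≤ ⌊(y - (i : ℕ) * l / m) / l⌋ := by
        apply Int.floor_le_floor
        apply div_le_div_of_nonneg_right _ hl.le
        linarith
      have hlt : ⌊(x - (i : ℕ) * l / m) / l⌋ + 1 ≤ ⌊(y - (i : ℕ) * l / m) / l⌋ := by
        have := lt_of_le_of_ne hle hi'
        omega
      have h1 : (x - (i : ℕ) * l / m) / l < (⌊(y - (i : ℕ) * l / m) / l⌋ : ℝ) := by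
        have h2 := Int.lt_floor_add_one ((x - (i : ℕ) * l / m) / l)
        have h3 : ((⌊(x - (i : ℕ) * l / m) / l⌋ + 1 : ℤ) : ℝ) ≤
            (⌊(y - (i : ℕ) * l / m) / l⌋ : ℝ) := by exact_mod_cast hlt
        push_cast at h3
        linarith
      have h4 : (⌊(y - (i : ℕ) * l / m) / l⌋ : ℝ) ≤ (y - (i : ℕ) * l / m) / l :=
        Int.floor_le _
      rw [div_lt_iff₀ hl] at h1
      rw [le_div_iff₀ hl] at h4
      have hcancel : ((i : ℕ) : ℝ) * l / m * m = (i : ℕ) * l := by field_simp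
      simp only [Finset.coe_Ioc, Set.mem_Ioc]
      constructor
      · rw [Int.floor_lt]
        push_cast
        rw [div_lt_iff₀ hl]
        nlinarith
      · rw [Int.le_floor]
        push_cast
        rw [le_div_iff₀ hl]
        nlinarith
    · intro i _ j _ hij
      have hi1 : ((((i : ℕ) : ℤ)) + (m : ℤ) * ⌊(y - (i : ℕ) * l / m) / l⌋) % (m : ℤ)
          = ((i : ℕ) : ℤ) := by
        rw [Int.add_mul_emod_self_left]
        exact Int.emod_eq_of_lt (by positivity) (by exact_mod_cast i.isLt)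
      have hj1 : ((((j : ℕ) : ℤ)) + (m : ℤ) * ⌊(y - (j : ℕ) * l / m) / l⌋) % (m : ℤ)
          = ((j : ℕ) : ℤ) := by
        rw [Int.add_mul_emod_self_left]
        exact Int.emod_eq_of_lt (by positivity) (by exact_mod_cast j.isLt)
      have hij' : ((((i : ℕ) : ℤ)) + (m : ℤ) * ⌊(y - (i : ℕ) * l / m) / l⌋) =
          ((((j : ℕ) : ℤ)) + (m : ℤ) * ⌊(y - (j : ℕ) * l / m) / l⌋) := hij
      rw [hij'] at hi1
      rw [hi1] at hj1
      apply Fin.ext
      exact_mod_cast hj1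
  have hcard : ((Finset.Ioc ⌊x * m / l⌋ ⌊y * m / l⌋).card : ℝ) ≤ m * R / l + 1 := by
    rw [Int.card_Ioc]
    have hfl : ⌊x * m / l⌋ ≤ ⌊y * m / l⌋ := by
      apply Int.floor_le_floor
      apply div_le_div_of_nonneg_right _ hl.le
      nlinarith
    have hnn : (0 : ℤ) ≤ ⌊y * m / l⌋ - ⌊x * m / l⌋ := by omega
    have hcast : (((⌊y * m / l⌋ - ⌊x * m / l⌋).toNat : ℕ) : ℝ) =
        ((⌊y * m / l⌋ : ℤ) : ℝ) - ((⌊x * m / l⌋ : ℤ) : ℝ) := by
      have := Int.toNat_of_nonneg hnn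
      have h2 : (((⌊y * m / l⌋ - ⌊x * m / l⌋).toNat : ℤ) : ℝ) =
          ((⌊y * m / l⌋ - ⌊x * m / l⌋ : ℤ) : ℝ) := by rw [this]
      push_cast at h2
      exact_mod_cast h2
    rw [hcast]
    have h5 : ((⌊y * m / l⌋ : ℤ) : ℝ) ≤ y * m / l := Int.floor_le _
    have h6 : x * m / l - 1 < ((⌊x * m / l⌋ : ℤ) : ℝ) := Int.sub_one_lt_floor _
    have h7 : y - x ≤ R := by
      have := le_abs_self (y - x)
      rw [abs_sub_comm] at this
      linarith
    have h8 : y * m / l - x * m / l ≤ m * R / l := by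
      rw [← sub_div]
      apply div_le_div_of_nonneg_right _ hl.le
      nlinarith
    linarith
  calc (((Finset.univ : Finset (Fin m)).filter
        (fun i : Fin m => ⌊(x - (i : ℕ) * l / m) / l⌋ ≠ ⌊(y - (i : ℕ) * l / m) / l⌋)).card : ℝ)
      ≤ ((Finset.Ioc ⌊x * m / l⌋ ⌊y * m / l⌋).card : ℝ) := by exact_mod_cast hinj
    _ ≤ m * R / l + 1 := hcard

theorem shift_count_three (l : ℝ) (hl : 0 < l) (m : ℕ) (hm : 0 < m) (x y : Fin 3 → ℝ) (R : ℝ)
    (hxy : ∀ j, |x j - y j| ≤ R) (hR : R / l + 1 / m ≤ 1) :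
    (m : ℝ) ^ 3 * (1 - R / l - 1 / m) ^ 3 ≤
      (((Finset.univ : Finset (Fin 3 → Fin m)).filter
        (fun a : Fin 3 → Fin m => ∀ j, ⌊(x j - (a j : ℕ) * l / m) / l⌋ = ⌊(y j - (a j : ℕ) * l / m) / l⌋)).card
        : ℝ) := by
  have hm' : (0 : ℝ) < m := by exact_mod_cast hm
  set G : Fin 3 → Finset (Fin m) := fun j => (Finset.univ : Finset (Fin m)).filter
      (fun i : Fin m => ⌊(x j - (i : ℕ) * l / m) / l⌋ = ⌊(y j - (i : ℕ) * l / m) / l⌋) with hG
  have hset : ((Finset.univ : Finset (Fin 3 → Fin m)).filter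
        (fun a : Fin 3 → Fin m => ∀ j, ⌊(x j - (a j : ℕ) * l / m) / l⌋ = ⌊(y j - (a j : ℕ) * l / m) / l⌋)) =
      Fintype.piFinset G := by
    ext a
    simp [Fintype.mem_piFinset, hG]
  rw [hset, Fintype.card_piFinset]
  have hGj : ∀ j, (m : ℝ) * (1 - R / l - 1 / m) ≤ ((G j).card : ℝ) := by
    intro j
    have hsplit := Finset.card_filter_add_card_filter_not
      (s := (Finset.univ : Finset (Fin m)))
      (fun i : Fin m => ⌊(x j - (i : ℕ) * l / m) / l⌋ = ⌊(y j - (i : ℕ) * l / m) / l⌋)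
    have hbad := shift_count_one l hl m hm (x j) (y j) R (hxy j)
    have hcardm : (Finset.univ : Finset (Fin m)).card = m := by simp
    rw [hcardm] at hsplit
    have hsplit' : ((G j).card : ℝ) + (((Finset.univ : Finset (Fin m)).filter
        (fun i : Fin m => ¬ ⌊(x j - (i : ℕ) * l / m) / l⌋ = ⌊(y j - (i : ℕ) * l / m) / l⌋)).card : ℝ)
        = m := by exact_mod_cast hsplit
    have e1 : (m : ℝ) * (1 - R / l - 1 / m) = m - m * R / l - 1 := by
      field_simp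
    rw [e1]
    have hbad' : (((Finset.univ : Finset (Fin m)).filter
        (fun i : Fin m => ¬ ⌊(x j - (i : ℕ) * l / m) / l⌋ = ⌊(y j - (i : ℕ) * l / m) / l⌋)).card : ℝ)
        ≤ m * R / l + 1 := hbad
    linarith
  have hnn : (0 : ℝ) ≤ (m : ℝ) * (1 - R / l - 1 / m) := by
    apply mul_nonneg hm'.le; linarith
  have hprod : ∏ _j : Fin 3, ((m : ℝ) * (1 - R / l - 1 / m)) ≤ ∏ j : Fin 3, ((G j).card : ℝ) :=
    Finset.prod_le_prod (fun _ _ => hnn) (fun j _ => hGj j)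
  have hconst : ∏ _j : Fin 3, ((m : ℝ) * (1 - R / l - 1 / m)) =
      (m : ℝ) ^ 3 * (1 - R / l - 1 / m) ^ 3 := by
    rw [Finset.prod_const, Finset.card_univ, Fintype.card_fin, mul_pow]
  rw [hconst] at hprod
  calc (m : ℝ) ^ 3 * (1 - R / l - 1 / m) ^ 3 ≤ ∏ j : Fin 3, ((G j).card : ℝ) := hprod
    _ = ((∏ j : Fin 3, (G j).card : ℕ) : ℝ) := by push_cast; rfl

end Vale.Agent.H74.P171
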