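import Mathlib

/-!
# A Fekete-type lemma for cubes with real side length

`P L` plays the role of `log Xi_{[0,L]^3}`: it is nonnegative, at most `C * L^3`, and
`k^3 * P l <= P L` whenever `k * (l + 1) <= L` (`k^3` translates of `[0,l]^3` at mutual
distance at least one fit into `[0,L]^3`).  Then `P L / L^3` converges as `L -> infinity`,
and the limit dominates `P l / (l + 1)^3` for every `l > 0`.
-/

namespace Vale.Agent.H74.P171

open Filter Topology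

theorem fekete_cube (P : ℝ → ℝ) (C : ℝ) (hP0 : ∀ L, 0 ≤ P L)
    (hub : ∀ L, 0 < L → P L ≤ C * L ^ 3)
    (hsup : ∀ (l L : ℝ) (k : ℕ), 0 < l → (k : ℝ) * (l + 1) ≤ L → (k : ℝ) ^ 3 * P l ≤ P L) :
    ∃ F : ℝ, Tendsto (fun L => P L / L ^ 3) atTop (𝓝 F) ∧
      (∀ l, 0 < l → P l / (l + 1) ^ 3 ≤ F) ∧ 0 ≤ F := by
  have hC : 0 ≤ C := by
    have h1 := hub 1 one_pos
    have h0 := hP0 1
    nlinarith
  set S : Set ℝ := Set.range (fun l : Set.Ioi (0:ℝ) => P l / ((l:ℝ) + 1) ^ 3) with hS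
  have hbdd : BddAbove S := by
    refine ⟨C, ?_⟩
    rintro _ ⟨⟨l, hl⟩, rfl⟩
    have hl' : (0:ℝ) < l := hl
    have h1 : P l ≤ C * l ^ 3 := hub l hl'
    have h2 : (0:ℝ) < (l + 1) ^ 3 := by positivity
    show P l / (l + 1) ^ 3 ≤ C
    rw [div_le_iff₀ h2]
    have h3 : l ^ 3 ≤ (l + 1) ^ 3 := by
      apply pow_le_pow_left₀ hl'.le; linarith
    calc P l ≤ C * l ^ 3 := h1
      _ ≤ C * (l + 1) ^ 3 := by gcongr
  have hne : S.Nonempty := ⟨_, ⟨⟨1, by simp⟩, rfl⟩⟩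
  have hF : ∀ l, 0 < l → P l / (l + 1) ^ 3 ≤ sSup S := by
    intro l hl
    exact le_csSup hbdd ⟨⟨l, hl⟩, rfl⟩
  have hF0 : 0 ≤ sSup S := by
    have h1 := hF 1 one_pos
    have h : 0 ≤ P 1 / ((1:ℝ) + 1) ^ 3 := by
      have := hP0 1; positivity
    linarith
  have hinv : Tendsto (fun L : ℝ => 1 / L) atTop (𝓝 0) := by
    simpa [one_div] using tendsto_inv_atTop_zero (𝕜 := ℝ)
  refine ⟨sSup S, ?_, hF, hF0⟩
  rw [tendsto_order]
  constructor
  · intro a ha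
    obtain ⟨_, ⟨⟨l, hl⟩, rfl⟩, hal⟩ := exists_lt_of_lt_csSup hne ha
    have hl' : (0:ℝ) < l := hl
    have hl1 : (0:ℝ) < l + 1 := by linarith
    have hal' : a < P l / (l + 1) ^ 3 := hal
    have hg : Tendsto (fun L : ℝ => (1 / (l + 1) - 1 / L) ^ 3 * P l) atTop
        (𝓝 ((1 / (l + 1) - 0) ^ 3 * P l)) :=
      ((tendsto_const_nhds.sub hinv).pow 3).mul_const _
    have hlim : a < (1 / (l + 1) - 0) ^ 3 * P l := by
      have : (1 / (l + 1) - 0) ^ 3 * P l = P l / (l + 1) ^ 3 := by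
        rw [sub_zero, one_div, inv_pow]; ring
      rw [this]; exact hal'
    have hev := hg.eventually (lt_mem_nhds hlim)
    filter_upwards [hev, eventually_ge_atTop (l + 1)] with L hL hLl
    have hLpos : 0 < L := by linarith
    have hk1 : ((⌊L / (l + 1)⌋₊ : ℕ) : ℝ) ≤ L / (l + 1) := Nat.floor_le (by positivity)
    have hk2 : L / (l + 1) - 1 < ((⌊L / (l + 1)⌋₊ : ℕ) : ℝ) := by
      have := Nat.lt_floor_add_one (L / (l + 1))
      linarith
    have hkL : ((⌊L / (l + 1)⌋₊ : ℕ) : ℝ) * (l + 1) ≤ L := by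
      rw [← le_div_iff₀ hl1]; exact hk1
    have hP := hsup l L ⌊L / (l + 1)⌋₊ hl' hkL
    have hpos : 0 ≤ L / (l + 1) - 1 := by
      rw [sub_nonneg, le_div_iff₀ hl1]; linarith
    have hk3 : (L / (l + 1) - 1) ^ 3 ≤ ((⌊L / (l + 1)⌋₊ : ℕ) : ℝ) ^ 3 :=
      pow_le_pow_left₀ hpos hk2.le 3
    have hL3 : (0:ℝ) < L ^ 3 := by positivity
    have hP0l := hP0 l
    show a < P L / L ^ 3
    rw [lt_div_iff₀ hL3]
    have e1 : (1 / (l + 1) - 1 / L) ^ 3 * P l * L ^ 3 = (L / (l + 1) - 1) ^ 3 * P l := by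
      field_simp
    calc a * L ^ 3 < (1 / (l + 1) - 1 / L) ^ 3 * P l * L ^ 3 :=
          mul_lt_mul_of_pos_right hL hL3
      _ = (L / (l + 1) - 1) ^ 3 * P l := e1
      _ ≤ ((⌊L / (l + 1)⌋₊ : ℕ) : ℝ) ^ 3 * P l := by gcongr
      _ ≤ P L := hP
  · intro b hb
    have hg : Tendsto (fun L : ℝ => sSup S * (1 + 1 / L) ^ 3) atTop
        (𝓝 (sSup S * (1 + 0) ^ 3)) :=
      ((tendsto_const_nhds.add hinv).pow 3).const_mul _
    have hlim : sSup S * (1 + 0) ^ 3 < b := by simpa using hb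
    have hev := hg.eventually (gt_mem_nhds hlim)
    filter_upwards [hev, eventually_gt_atTop (0:ℝ)] with L hL hLpos
    have h1 := hF L hLpos
    have hL3 : (0:ℝ) < L ^ 3 := by positivity
    have hL13 : (0:ℝ) < (L + 1) ^ 3 := by positivity
    show P L / L ^ 3 < b
    rw [div_lt_iff₀ hL3]
    rw [div_le_iff₀ hL13] at h1
    have e2 : sSup S * (L + 1) ^ 3 = sSup S * (1 + 1 / L) ^ 3 * L ^ 3 := by
      field_simp
    calc P L ≤ sSup S * (L + 1) ^ 3 := h1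
      _ = sSup S * (1 + 1 / L) ^ 3 * L ^ 3 := e2
      _ < b * L ^ 3 := mul_lt_mul_of_pos_right hL hL3

end Vale.Agent.H74.P171
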