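import Mathlib
import Vale.Agent.H96.P171.Defs
import Vale.Agent.H96.P171.Energy.Basic
import Vale.Agent.H79.LP.Cells
import Vale.Agent.H4.P171.XiBridge

/-!
# P171 moonshot, LP1: the pointwise energy inequality (H2) for the shifted grids

For `n ≥ 4` put `l = rho n`, `r = 4 rho (n-1) + 2` (so `Rn (n-1) = r`), `pi_n = ((l - r - 1)/l)^3`,
`t'' = (t_k / pi_n for k < n, 0 else)` and `s = (21/2)(σ + ∑_{k ≥ n} t_k)`. For EVERY configuration `x`:
the energy of `x` for `t + σ e_n` is at least the average over the `l^3` integer shifts `a` of the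
sum over the cells of the grid `a` of the energy for `t''` minus `s n_cell^2 / l^3`.
`lp1_pointwise` is the exponentiated form (the hypothesis of the measure step LP2).
-/

open Classical
open scoped BigOperators ENNReal
open Vale.Agent.H96.P171
open Vale.Agent.H79.LP (sameCell shift sameCount shift_count near_count)
open Vale.Agent.H4.P171 (pairFactor)

namespace Vale.Agent.H74.P171

/-- `r_n = 4 rho (n-1) + 2`, the natural number equal to `Rn (n-1)`. -/
def rN (n : ℕ) : ℕ := 4 * rho (n - 1) + 2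

/-- `pi_n = ((l - r - 1)/l)^3` with `l = rho n`, `r = rN n`. -/
noncomputable def piN (n : ℕ) : ℝ := (((rho n - rN n - 1 : ℕ) : ℝ) / (rho n : ℝ)) ^ 3

/-- The rescaled short-range parameters: `t_k / pi_n` for `k < n`, `0` otherwise. -/
noncomputable def tpp (t : ℕ → ℝ) (n : ℕ) : ℕ → ℝ := fun k => if k < n then t k / piN n else 0

/-- `s = (21/2)(σ + ∑_{k ≥ n} t_k)`. -/
noncomputable def sN (t : ℕ → ℝ) (n : ℕ) (σ : ℝ) : ℝ := 21 / 2 * (σ + ∑' k, t (k + n))

/-- `gam = exp(s / l^3)`. -/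
noncomputable def gamN (t : ℕ → ℝ) (n : ℕ) (σ : ℝ) : ℝ≥0∞ :=
  ENNReal.ofReal (Real.exp (sN t n σ / (rho n : ℝ) ^ 3))

/-- Ordered pairs of distinct indices. -/
def lp1P (N : ℕ) : Finset (Fin N × Fin N) := Finset.univ.filter (fun p => p.1 ≠ p.2)

theorem lp1_rho_pos (n : ℕ) : 0 < rho n := Nat.factorial_pos _

theorem lp1_rho_mono {k n : ℕ} (h : k ≤ n) : rho k ≤ rho n := Nat.factorial_le (by omega)

theorem lp1_r_lt (n : ℕ) (hn : 4 ≤ n) : rN n + 1 < rho n := by
  unfold rN rho
  obtain ⟨m, rfl⟩ : ∃ m, n = m + 1 := ⟨n - 1, by omega⟩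
  simp only [Nat.add_sub_cancel]
  rw [Nat.factorial_succ (m + 1)]
  have h24 : 24 ≤ (m + 1).factorial := by
    calc 24 = (4).factorial := by decide
      _ ≤ (m + 1).factorial := Nat.factorial_le (by omega)
  have h5 : 5 * (m + 1).factorial ≤ (m + 1 + 1) * (m + 1).factorial :=
    Nat.mul_le_mul_right _ (by omega)
  omega

theorem lp1_Rn_le (n k : ℕ) (hk : k < n) : Rn k ≤ (rN n : ℝ) := by
  unfold Rn rN
  have h1 : (rho k : ℝ) ≤ (rho (n - 1) : ℝ) := by exact_mod_cast lp1_rho_mono (by omega : k ≤ n - 1)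
  push_cast
  linarith

theorem lp1_four_l_le (n k : ℕ) (hk : n ≤ k) : 4 * (rho n : ℝ) ≤ Rn k := by
  unfold Rn
  have h1 : (rho n : ℝ) ≤ (rho k : ℝ) := by exact_mod_cast lp1_rho_mono hk
  linarith

theorem lp1_coord_le_dist (p q : E3) (j : Fin 3) : |p j - q j| ≤ dist p q := by
  have h := PiLp.norm_apply_le (p - q) j
  rw [dist_eq_norm]
  simpa [Real.norm_eq_abs] using h

theorem lp1_adm_addAt (t : ℕ → ℝ) (h : Adm t) (n : ℕ) (σ : ℝ) (hσ : 0 ≤ σ) :
    Adm (addAt t n σ) := by
  refine ⟨fun k => ?_, ?_⟩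
  · unfold addAt
    have := h.1 k
    split_ifs <;> linarith
  · unfold addAt
    exact h.2.add (hasSum_ite_eq n σ).summable

theorem lp1_Phi_addAt (t : ℕ → ℝ) (h : Adm t) (n : ℕ) (σ : ℝ) (hσ : 0 ≤ σ) (r : ℝ) :
    Phi (addAt t n σ) r = phi0 r - ∑ k ∈ Finset.range n, t k * bump k r
      - ∑' m, addAt t n σ (m + n) * bump (m + n) r := by
  unfold Phi
  have hs := summable_t_bump (addAt t n σ) (lp1_adm_addAt t h n σ hσ) r
  rw [← hs.sum_add_tsum_nat_add n]
  have e : ∑ k ∈ Finset.range n, addAt t n σ k * bump k r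
      = ∑ k ∈ Finset.range n, t k * bump k r := by
    refine Finset.sum_congr rfl (fun k hk => ?_)
    have hk' : k ≠ n := (Finset.mem_range.mp hk).ne
    unfold addAt
    rw [if_neg hk', add_zero]
  rw [e]
  ring

theorem lp1_Phi_tpp (t : ℕ → ℝ) (n : ℕ) (r : ℝ) :
    Phi (tpp t n) r = phi0 r - ∑ k ∈ Finset.range n, t k / piN n * bump k r := by
  unfold Phi
  rw [tsum_eq_sum (s := Finset.range n)]
  · congr 1
    refine Finset.sum_congr rfl (fun k hk => ?_)
    unfold tpp
    rw [if_pos (Finset.mem_range.mp hk)]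
  · intro k hk
    unfold tpp
    rw [if_neg (by simpa using hk), zero_mul]

theorem lp1_tail (t : ℕ → ℝ) (h : Adm t) (n : ℕ) (σ : ℝ) :
    Summable (fun m => addAt t n σ (m + n)) ∧
      ∑' m, addAt t n σ (m + n) = σ + ∑' m, t (m + n) := by
  have h1 : Summable (fun m => t (m + n)) := (summable_nat_add_iff n).mpr h.2
  have h2 : HasSum (fun m : ℕ => if m = 0 then σ else 0) σ := hasSum_ite_eq 0 σ
  have e : (fun m => addAt t n σ (m + n)) = fun m => t (m + n) + if m = 0 then σ else 0 := by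
    funext m
    unfold addAt
    congr 1
    simp
  rw [e]
  exact ⟨h1.add h2.summable, by rw [(h1.hasSum.add h2).tsum_eq]; ring⟩

/-- Core: restricting to pairs in a common cell only lowers the core energy. -/
theorem lp1_core (l : ℕ) {N : ℕ} (x : Fin N → E3) :
    ∑ a : Fin 3 → Fin l, ∑ p ∈ (lp1P N).filter
        (fun p => sameCell l (shift l a) (x p.1) (x p.2)), phi0 (dist (x p.1) (x p.2))
      ≤ (l : ℝ) ^ 3 * ∑ p ∈ lp1P N, phi0 (dist (x p.1) (x p.2)) := by
  have h1 : ∀ a : Fin 3 → Fin l, ∑ p ∈ (lp1P N).filter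
        (fun p => sameCell l (shift l a) (x p.1) (x p.2)), phi0 (dist (x p.1) (x p.2))
      ≤ ∑ p ∈ lp1P N, phi0 (dist (x p.1) (x p.2)) :=
    fun a => Finset.sum_le_sum_of_subset_of_nonneg (Finset.filter_subset _ _)
      (fun p _ _ => phi0_nonneg _)
  calc _ ≤ ∑ _a : Fin 3 → Fin l, ∑ p ∈ lp1P N, phi0 (dist (x p.1) (x p.2)) :=
        Finset.sum_le_sum (fun a _ => h1 a)
    _ = _ := by
        rw [Finset.sum_const, Finset.card_univ, nsmul_eq_mul]
        simp

/-- Short bumps: a pair at distance `< Rn k ≤ r` shares a cell for at least `l - r - 1` cubed shifts. -/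
theorem lp1_short (l r : ℕ) (hlr : r + 1 < l) (k : ℕ) (hk : Rn k ≤ (r : ℝ)) {N : ℕ}
    (x : Fin N → E3) :
    (((l - r - 1 : ℕ) : ℝ)) ^ 3 * ∑ p ∈ lp1P N, bump k (dist (x p.1) (x p.2))
      ≤ ∑ a : Fin 3 → Fin l, ∑ p ∈ (lp1P N).filter
          (fun p => sameCell l (shift l a) (x p.1) (x p.2)), bump k (dist (x p.1) (x p.2)) := by
  have hswap : ∑ a : Fin 3 → Fin l, ∑ p ∈ (lp1P N).filter
          (fun p => sameCell l (shift l a) (x p.1) (x p.2)), bump k (dist (x p.1) (x p.2))
      = ∑ p ∈ lp1P N, ((Finset.univ.filter (fun a : Fin 3 → Fin l =>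
          sameCell l (shift l a) (x p.1) (x p.2))).card : ℝ) * bump k (dist (x p.1) (x p.2)) := by
    have e1 : ∀ a : Fin 3 → Fin l, ∑ p ∈ (lp1P N).filter
          (fun p => sameCell l (shift l a) (x p.1) (x p.2)), bump k (dist (x p.1) (x p.2))
        = ∑ p ∈ lp1P N, if sameCell l (shift l a) (x p.1) (x p.2)
            then bump k (dist (x p.1) (x p.2)) else 0 := fun a => Finset.sum_filter _ _
    rw [Finset.sum_congr rfl (fun a _ => e1 a), Finset.sum_comm]
    refine Finset.sum_congr rfl (fun p _ => ?_)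
    rw [← Finset.sum_filter, Finset.sum_const, nsmul_eq_mul]
  rw [hswap, Finset.mul_sum]
  refine Finset.sum_le_sum (fun p _ => ?_)
  by_cases hb : dist (x p.1) (x p.2) < Rn k
  · have hc := shift_count l r hlr (x p.1) (x p.2)
      (fun i => le_trans (lp1_coord_le_dist _ _ i) (le_trans hb.le hk))
    have hc' : (((l - r - 1 : ℕ) : ℝ)) ^ 3 ≤ ((Finset.univ.filter (fun a : Fin 3 → Fin l =>
          sameCell l (shift l a) (x p.1) (x p.2))).card : ℝ) := by exact_mod_cast hc
    exact mul_le_mul_of_nonneg_right hc' (bump_nonneg k _)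
  · have h0 : bump k (dist (x p.1) (x p.2)) = 0 := by
      unfold bump
      rw [if_neg hb]
    rw [h0, mul_zero, mul_zero]

/-- Long bumps: pairs at distance `< Rn k`, `Rn k ≥ 4 l`, are counted by the squares of the
occupation numbers of any grid of side `l`. -/
theorem lp1_long (l : ℕ) (hl : 0 < l) (a : Fin 3 → ℤ) (k : ℕ) (hk : 4 * (l : ℝ) ≤ Rn k) {N : ℕ}
    (x : Fin N → E3) :
    ∑ p ∈ lp1P N, bump k (dist (x p.1) (x p.2))
      ≤ 21 / (l : ℝ) ^ 3 * (sameCount l a x : ℝ) := by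
  have hR : 0 < Rn k := by
    have := Rn_ge k
    linarith
  have h1 := near_count l hl a (Rn k) hk x
  have h2 : ∑ p ∈ lp1P N, bump k (dist (x p.1) (x p.2))
      = ((Finset.univ.filter (fun p : Fin N × Fin N =>
          p.1 ≠ p.2 ∧ dist (x p.1) (x p.2) < Rn k)).card : ℝ) * ((Rn k)⁻¹) ^ 3 := by
    unfold bump lp1P
    rw [Finset.sum_ite, Finset.sum_const_zero, add_zero, Finset.sum_const, nsmul_eq_mul,
      Finset.filter_filter]
  rw [h2]
  have hl' : (0 : ℝ) < (l : ℝ) ^ 3 := by positivity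
  calc _ ≤ (21 * Rn k ^ 3 / (l : ℝ) ^ 3 * (sameCount l a x : ℝ)) * ((Rn k)⁻¹) ^ 3 :=
        mul_le_mul_of_nonneg_right h1 (by positivity)
    _ = 21 / (l : ℝ) ^ 3 * (sameCount l a x : ℝ) := by
        field_simp

/-- The long-range part: for every grid `a`, the tail energy is at most `2 s / l^3` times `∑ n_cell^2`. -/
theorem lp1_tail_le (t : ℕ → ℝ) (h : Adm t) (n : ℕ) (σ : ℝ) (hσ : 0 ≤ σ) (a : Fin 3 → ℤ)
    {N : ℕ} (x : Fin N → E3) :
    ∑ p ∈ lp1P N, ∑' m, addAt t n σ (m + n) * bump (m + n) (dist (x p.1) (x p.2))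
      ≤ 2 * sN t n σ / (rho n : ℝ) ^ 3 * (sameCount (rho n) a x : ℝ) := by
  have hadm := lp1_adm_addAt t h n σ hσ
  have hsum : ∀ r : ℝ, Summable (fun m => addAt t n σ (m + n) * bump (m + n) r) := fun r =>
    (summable_nat_add_iff n).mpr (summable_t_bump (addAt t n σ) hadm r)
  obtain ⟨hc, hcs⟩ := lp1_tail t h n σ
  rw [← Summable.tsum_finsetSum (fun p _ => hsum _)]
  have hle : ∀ m, ∑ p ∈ lp1P N, addAt t n σ (m + n) * bump (m + n) (dist (x p.1) (x p.2))
      ≤ addAt t n σ (m + n) * (21 / (rho n : ℝ) ^ 3 * (sameCount (rho n) a x : ℝ)) := by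
    intro m
    rw [← Finset.mul_sum]
    exact mul_le_mul_of_nonneg_left
      (lp1_long (rho n) (lp1_rho_pos n) a (m + n) (lp1_four_l_le n (m + n) (by omega)) x)
      (hadm.1 _)
  have h1 : Summable (fun m => ∑ p ∈ lp1P N,
      addAt t n σ (m + n) * bump (m + n) (dist (x p.1) (x p.2))) :=
    summable_sum (fun p _ => hsum _)
  have h2 : Summable (fun m => addAt t n σ (m + n) *
      (21 / (rho n : ℝ) ^ 3 * (sameCount (rho n) a x : ℝ))) := hc.mul_right _
  calc _ ≤ ∑' m, addAt t n σ (m + n) * (21 / (rho n : ℝ) ^ 3 * (sameCount (rho n) a x : ℝ)) :=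
        Summable.tsum_le_tsum hle h1 h2
    _ = _ := by
        rw [tsum_mul_right, hcs]
        unfold sN
        ring

/-- LP1, multiplied form on the set of ordered pairs. -/
theorem lp1_energy_P (t : ℕ → ℝ) (h : Adm t) (n : ℕ) (hn : 4 ≤ n) (σ : ℝ) (hσ : 0 ≤ σ)
    {N : ℕ} (x : Fin N → E3) :
    ∑ a : Fin 3 → Fin (rho n),
        (∑ p ∈ (lp1P N).filter (fun p => sameCell (rho n) (shift (rho n) a) (x p.1) (x p.2)),
            Phi (tpp t n) (dist (x p.1) (x p.2))
          - 2 * sN t n σ / (rho n : ℝ) ^ 3 * (sameCount (rho n) (shift (rho n) a) x : ℝ))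
      ≤ (rho n : ℝ) ^ 3 * ∑ p ∈ lp1P N, Phi (addAt t n σ) (dist (x p.1) (x p.2)) := by
  have hlr := lp1_r_lt n hn
  have hl0 : (0 : ℝ) < (rho n : ℝ) := by exact_mod_cast lp1_rho_pos n
  have hM : (0 : ℝ) < (rho n : ℝ) ^ 3 := by positivity
  have hq0 : (0 : ℝ) < ((rho n - rN n - 1 : ℕ) : ℝ) := by
    have : 0 < rho n - rN n - 1 := by omega
    exact_mod_cast this
  have hq : (0 : ℝ) < ((rho n - rN n - 1 : ℕ) : ℝ) ^ 3 := by positivity
  have hpi : piN n = ((rho n - rN n - 1 : ℕ) : ℝ) ^ 3 / (rho n : ℝ) ^ 3 := by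
    unfold piN
    rw [div_pow]
  have hpi0 : 0 < piN n := by
    rw [hpi]
    positivity
  -- left side
  have hA : ∀ a : Fin 3 → Fin (rho n),
      ∑ p ∈ (lp1P N).filter (fun p => sameCell (rho n) (shift (rho n) a) (x p.1) (x p.2)),
          Phi (tpp t n) (dist (x p.1) (x p.2))
        = ∑ p ∈ (lp1P N).filter (fun p => sameCell (rho n) (shift (rho n) a) (x p.1) (x p.2)),
            phi0 (dist (x p.1) (x p.2))
          - ∑ k ∈ Finset.range n, t k / piN n *
              ∑ p ∈ (lp1P N).filter (fun p => sameCell (rho n) (shift (rho n) a) (x p.1) (x p.2)),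
                bump k (dist (x p.1) (x p.2)) := by
    intro a
    simp only [lp1_Phi_tpp]
    rw [Finset.sum_sub_distrib, Finset.sum_comm]
    simp only [Finset.mul_sum]
  have hL : ∑ a : Fin 3 → Fin (rho n),
        (∑ p ∈ (lp1P N).filter (fun p => sameCell (rho n) (shift (rho n) a) (x p.1) (x p.2)),
            Phi (tpp t n) (dist (x p.1) (x p.2))
          - 2 * sN t n σ / (rho n : ℝ) ^ 3 * (sameCount (rho n) (shift (rho n) a) x : ℝ))
      = ∑ a : Fin 3 → Fin (rho n),
          ∑ p ∈ (lp1P N).filter (fun p => sameCell (rho n) (shift (rho n) a) (x p.1) (x p.2)),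
            phi0 (dist (x p.1) (x p.2))
        - ∑ k ∈ Finset.range n, t k / piN n * ∑ a : Fin 3 → Fin (rho n),
            ∑ p ∈ (lp1P N).filter (fun p => sameCell (rho n) (shift (rho n) a) (x p.1) (x p.2)),
              bump k (dist (x p.1) (x p.2))
        - ∑ a : Fin 3 → Fin (rho n),
            2 * sN t n σ / (rho n : ℝ) ^ 3 * (sameCount (rho n) (shift (rho n) a) x : ℝ) := by
    rw [Finset.sum_congr rfl (fun a _ => by rw [hA a]), Finset.sum_sub_distrib,
      Finset.sum_sub_distrib, Finset.sum_comm]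
    simp only [Finset.mul_sum]
  -- right side
  have hRt : ∑ p ∈ lp1P N, Phi (addAt t n σ) (dist (x p.1) (x p.2))
      = ∑ p ∈ lp1P N, phi0 (dist (x p.1) (x p.2))
        - ∑ k ∈ Finset.range n, t k * ∑ p ∈ lp1P N, bump k (dist (x p.1) (x p.2))
        - ∑ p ∈ lp1P N, ∑' m, addAt t n σ (m + n) * bump (m + n) (dist (x p.1) (x p.2)) := by
    simp only [lp1_Phi_addAt t h n σ hσ]
    rw [Finset.sum_sub_distrib, Finset.sum_sub_distrib, Finset.sum_comm]
    simp only [Finset.mul_sum]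
  -- the three inequalities
  have i1 := lp1_core (rho n) x
  have i2 : ∑ k ∈ Finset.range n, (rho n : ℝ) ^ 3 *
        (t k * ∑ p ∈ lp1P N, bump k (dist (x p.1) (x p.2)))
      ≤ ∑ k ∈ Finset.range n, t k / piN n * ∑ a : Fin 3 → Fin (rho n),
            ∑ p ∈ (lp1P N).filter (fun p => sameCell (rho n) (shift (rho n) a) (x p.1) (x p.2)),
              bump k (dist (x p.1) (x p.2)) := by
    refine Finset.sum_le_sum (fun k hk => ?_)
    have hs := lp1_short (rho n) (rN n) hlr k (lp1_Rn_le n k (Finset.mem_range.mp hk)) x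
    have ht : 0 ≤ t k / piN n := div_nonneg (h.1 k) hpi0.le
    have h3 := mul_le_mul_of_nonneg_left hs ht
    have h4 : t k / piN n * (((rho n - rN n - 1 : ℕ) : ℝ) ^ 3 *
          ∑ p ∈ lp1P N, bump k (dist (x p.1) (x p.2)))
        = (rho n : ℝ) ^ 3 * (t k * ∑ p ∈ lp1P N, bump k (dist (x p.1) (x p.2))) := by
      rw [hpi]
      field_simp
    linarith
  have i3 : (rho n : ℝ) ^ 3 *
        ∑ p ∈ lp1P N, ∑' m, addAt t n σ (m + n) * bump (m + n) (dist (x p.1) (x p.2))
      ≤ ∑ a : Fin 3 → Fin (rho n),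
            2 * sN t n σ / (rho n : ℝ) ^ 3 * (sameCount (rho n) (shift (rho n) a) x : ℝ) := by
    have h5 : ∑ _a : Fin 3 → Fin (rho n),
          ∑ p ∈ lp1P N, ∑' m, addAt t n σ (m + n) * bump (m + n) (dist (x p.1) (x p.2))
        = (rho n : ℝ) ^ 3 *
          ∑ p ∈ lp1P N, ∑' m, addAt t n σ (m + n) * bump (m + n) (dist (x p.1) (x p.2)) := by
      rw [Finset.sum_const, Finset.card_univ, nsmul_eq_mul]
      simp
    rw [← h5]
    exact Finset.sum_le_sum (fun a _ => lp1_tail_le t h n σ hσ (shift (rho n) a) x)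
  have i2' : (rho n : ℝ) ^ 3 *
        ∑ k ∈ Finset.range n, t k * ∑ p ∈ lp1P N, bump k (dist (x p.1) (x p.2))
      = ∑ k ∈ Finset.range n, (rho n : ℝ) ^ 3 *
        (t k * ∑ p ∈ lp1P N, bump k (dist (x p.1) (x p.2))) := Finset.mul_sum _ _ _
  rw [hL, hRt, mul_sub, mul_sub, i2']
  linarith

theorem lp1_sum_offdiag {N : ℕ} (G : Fin N → Fin N → ℝ) :
    ∑ i, ∑ j, (if i = j then 0 else G i j) = ∑ p ∈ lp1P N, G p.1 p.2 := by
  unfold lp1P
  rw [Finset.sum_filter, Fintype.sum_prod_type]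
  refine Finset.sum_congr rfl fun i _ => Finset.sum_congr rfl fun j _ => ?_
  by_cases hij : i = j <;> simp [hij]

theorem lp1_prod_offdiag {N : ℕ} (G : Fin N → Fin N → ℝ) :
    ∏ i, ∏ j, (if i = j then (1 : ℝ≥0∞) else ENNReal.ofReal (Real.exp (G i j)))
      = ENNReal.ofReal (Real.exp (∑ i, ∑ j, if i = j then 0 else G i j)) := by
  rw [Real.exp_sum, ENNReal.ofReal_prod_of_nonneg (fun i _ => (Real.exp_pos _).le)]
  refine Finset.prod_congr rfl fun i _ => ?_
  rw [Real.exp_sum, ENNReal.ofReal_prod_of_nonneg (fun j _ => (Real.exp_pos _).le)]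
  refine Finset.prod_congr rfl fun j _ => ?_
  split_ifs
  · simp
  · rfl

/-- The sum of the squares of the occupation numbers is `N` plus the number of ordered pairs
of distinct indices in a common cell. -/
theorem lp1_sameCount_eq (l : ℕ) (a : Fin 3 → ℤ) {N : ℕ} (x : Fin N → E3) :
    (sameCount l a x : ℝ) = N + ∑ p ∈ lp1P N, if sameCell l a (x p.1) (x p.2) then (1 : ℝ) else 0 := by
  unfold sameCount
  rw [Finset.natCast_card_filter, Fintype.sum_prod_type,
    ← lp1_sum_offdiag (fun i j => if sameCell l a (x i) (x j) then (1 : ℝ) else 0)]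
  have e : ∀ i j : Fin N, (if sameCell l a (x i) (x j) then (1 : ℝ) else 0)
      = (if i = j then 1 else 0)
        + (if i = j then 0 else if sameCell l a (x i) (x j) then (1 : ℝ) else 0) := by
    intro i j
    by_cases hij : i = j
    · subst hij
      have hS : sameCell l a (x i) (x i) := rfl
      simp [hS]
    · simp [hij]
  have e' : ∑ i : Fin N, ∑ j : Fin N, (if sameCell l a (x i) (x j) then (1 : ℝ) else 0)
      = ∑ i : Fin N, ∑ j : Fin N, ((if i = j then (1 : ℝ) else 0)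
        + (if i = j then 0 else if sameCell l a (x i) (x j) then (1 : ℝ) else 0)) :=
    Finset.sum_congr rfl fun i _ => Finset.sum_congr rfl fun j _ => e i j
  rw [e']
  simp only [Finset.sum_add_distrib]
  simp

/-- The weight of one grid: `gam^(∑ n_cell^2)` times the pair factors inside the cells. -/
theorem lp1_factor (g : ℝ) (l : ℕ) (a : Fin 3 → ℤ) (u : ℝ → ℝ) {N : ℕ} (x : Fin N → E3) :
    ENNReal.ofReal (Real.exp g) ^ N * ∏ i, ∏ j, (if i = j then 1 else
        if sameCell l a (x i) (x j) then ENNReal.ofReal (Real.exp g) * pairFactor u (x i) (x j)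
          else 1)
      = ENNReal.ofReal (Real.exp (g * (sameCount l a x : ℝ)
          - (1 / 2) * ∑ p ∈ (lp1P N).filter (fun p => sameCell l a (x p.1) (x p.2)),
              u (dist (x p.1) (x p.2)))) := by
  have e1 : ∀ i j : Fin N, (if i = j then (1 : ℝ≥0∞) else
        if sameCell l a (x i) (x j) then ENNReal.ofReal (Real.exp g) * pairFactor u (x i) (x j)
          else 1)
      = if i = j then 1 else ENNReal.ofReal (Real.exp
          (if sameCell l a (x i) (x j) then g + -(u (dist (x i) (x j))) / 2 else 0)) := by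
    intro i j
    by_cases hij : i = j
    · simp [hij]
    · rw [if_neg hij, if_neg hij]
      by_cases hS : sameCell l a (x i) (x j)
      · rw [if_pos hS, if_pos hS]
        unfold pairFactor
        rw [← ENNReal.ofReal_mul (Real.exp_pos _).le, ← Real.exp_add]
      · rw [if_neg hS, if_neg hS]
        simp
  simp_rw [e1]
  rw [lp1_prod_offdiag (fun i j => if sameCell l a (x i) (x j)
      then g + -(u (dist (x i) (x j))) / 2 else 0),
    ← ENNReal.ofReal_pow (Real.exp_pos _).le, ← Real.exp_nat_mul,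
    ← ENNReal.ofReal_mul (Real.exp_pos _).le, ← Real.exp_add]
  congr 2
  rw [lp1_sum_offdiag (fun i j => if sameCell l a (x i) (x j)
      then g + -(u (dist (x i) (x j))) / 2 else 0), lp1_sameCount_eq, Finset.sum_filter]
  have e2 : ∀ p : Fin N × Fin N, (if sameCell l a (x p.1) (x p.2)
        then g + -(u (dist (x p.1) (x p.2))) / 2 else 0)
      = g * (if sameCell l a (x p.1) (x p.2) then (1 : ℝ) else 0)
        - (1 / 2) * (if sameCell l a (x p.1) (x p.2) then u (dist (x p.1) (x p.2)) else 0) := by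
    intro p
    split_ifs <;> ring
  simp_rw [e2]
  rw [Finset.sum_sub_distrib, ← Finset.mul_sum, ← Finset.mul_sum]
  ring

/-- LP1, exponentiated form: the hypothesis of the measure step LP2 for the concrete pair
factors. It holds for every configuration. -/
theorem lp1_pointwise (t : ℕ → ℝ) (h : Adm t) (n : ℕ) (hn : 4 ≤ n) (σ : ℝ) (hσ : 0 ≤ σ)
    (N : ℕ) (x : Fin N → E3) :
    ∏ i, ∏ j, (if i = j then 1 else pairFactor (Phi (addAt t n σ)) (x i) (x j))
      ≤ ∏ a : Fin 3 → Fin (rho n),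
          (gamN t n σ ^ N * ∏ i, ∏ j, (if i = j then 1 else
            if sameCell (rho n) (shift (rho n) a) (x i) (x j)
              then gamN t n σ * pairFactor (Phi (tpp t n)) (x i) (x j) else 1))
            ^ (((rho n : ℝ) ^ 3)⁻¹) := by
  have hM : (0 : ℝ) < (rho n : ℝ) ^ 3 := by
    have h0 : (0 : ℝ) < (rho n : ℝ) := by exact_mod_cast lp1_rho_pos n
    positivity
  have hLHS : ∏ i, ∏ j, (if i = j then 1 else pairFactor (Phi (addAt t n σ)) (x i) (x j))
      = ENNReal.ofReal (Real.exp (-(1 / 2) *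
          ∑ p ∈ lp1P N, Phi (addAt t n σ) (dist (x p.1) (x p.2)))) := by
    unfold pairFactor
    rw [lp1_prod_offdiag (fun i j => -(Phi (addAt t n σ) (dist (x i) (x j))) / 2),
      lp1_sum_offdiag (fun i j => -(Phi (addAt t n σ) (dist (x i) (x j))) / 2), Finset.mul_sum]
    congr 2
    exact Finset.sum_congr rfl (fun p _ => by ring)
  have hRHS : ∀ a : Fin 3 → Fin (rho n),
      (gamN t n σ ^ N * ∏ i, ∏ j, (if i = j then 1 else
            if sameCell (rho n) (shift (rho n) a) (x i) (x j)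
              then gamN t n σ * pairFactor (Phi (tpp t n)) (x i) (x j) else 1))
            ^ (((rho n : ℝ) ^ 3)⁻¹)
        = ENNReal.ofReal (Real.exp ((sN t n σ / (rho n : ℝ) ^ 3 *
              (sameCount (rho n) (shift (rho n) a) x : ℝ)
            - (1 / 2) * ∑ p ∈ (lp1P N).filter
                (fun p => sameCell (rho n) (shift (rho n) a) (x p.1) (x p.2)),
                Phi (tpp t n) (dist (x p.1) (x p.2))) * ((rho n : ℝ) ^ 3)⁻¹)) := by
    intro a
    unfold gamN
    rw [lp1_factor, ENNReal.ofReal_rpow_of_pos (Real.exp_pos _), ← Real.exp_mul]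
  rw [hLHS, Finset.prod_congr rfl (fun a _ => hRHS a),
    ← ENNReal.ofReal_prod_of_nonneg (fun a _ => (Real.exp_pos _).le), ← Real.exp_sum]
  apply ENNReal.ofReal_le_ofReal
  apply Real.exp_le_exp.mpr
  have hE := lp1_energy_P t h n hn σ hσ x
  rw [← Finset.sum_mul]
  have e : ∑ a : Fin 3 → Fin (rho n), (sN t n σ / (rho n : ℝ) ^ 3 *
              (sameCount (rho n) (shift (rho n) a) x : ℝ)
            - (1 / 2) * ∑ p ∈ (lp1P N).filter
                (fun p => sameCell (rho n) (shift (rho n) a) (x p.1) (x p.2)),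
                Phi (tpp t n) (dist (x p.1) (x p.2)))
      = -(1 / 2) * ∑ a : Fin 3 → Fin (rho n),
        (∑ p ∈ (lp1P N).filter (fun p => sameCell (rho n) (shift (rho n) a) (x p.1) (x p.2)),
            Phi (tpp t n) (dist (x p.1) (x p.2))
          - 2 * sN t n σ / (rho n : ℝ) ^ 3 * (sameCount (rho n) (shift (rho n) a) x : ℝ)) := by
    rw [Finset.mul_sum]
    exact Finset.sum_congr rfl (fun a _ => by ring)
  rw [e]
  have h3 : (∑ a : Fin 3 → Fin (rho n),
        (∑ p ∈ (lp1P N).filter (fun p => sameCell (rho n) (shift (rho n) a) (x p.1) (x p.2)),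
            Phi (tpp t n) (dist (x p.1) (x p.2))
          - 2 * sN t n σ / (rho n : ℝ) ^ 3 * (sameCount (rho n) (shift (rho n) a) x : ℝ)))
        * ((rho n : ℝ) ^ 3)⁻¹
      ≤ ∑ p ∈ lp1P N, Phi (addAt t n σ) (dist (x p.1) (x p.2)) :=
    (mul_inv_le_iff₀ hM).mpr (le_of_le_of_eq hE (mul_comm _ _))
  rw [mul_assoc]
  linarith

end Vale.Agent.H74.P171
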