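import Mathlib
import Vale.Agent.H74.P171.LP1
import Vale.Agent.H4.P171.LP2
import Vale.Agent.H96.P171.Meas.LMeasBw

/-!
# P171 moonshot, LP1 + LP2: the measure step for the concrete pair factors

`lp1_hpt` is `lp1_pointwise` in the spelling of the hypothesis of `Vale.Agent.H4.P171.LP2`;
`lp12` is `LP2` instantiated at the pair factors of `Phi (addAt t n σ)` and `Phi (tpp t n)`.
Also: `tpp t n` is admissible, `0 < piN n ≤ 1` for `n ≥ 4`, and `piN n → 1`.
-/

open Classical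
open MeasureTheory
open scoped BigOperators ENNReal
open Vale.Agent.H96.P171
open Vale.Agent.H79.LP (sameCell shift sameCount cell)
open Vale.Agent.H4.P171 (pairFactor chiGrid)

namespace Vale.Agent.H74.P171

theorem lp1_cast_sub (n : ℕ) (hn : 4 ≤ n) :
    ((rho n - rN n - 1 : ℕ) : ℝ) = (rho n : ℝ) - (rN n : ℝ) - 1 := by
  have hlr := lp1_r_lt n hn
  rw [Nat.cast_sub (by omega), Nat.cast_sub (by omega)]
  simp

theorem lp1_piN_pos (n : ℕ) (hn : 4 ≤ n) : 0 < piN n := by
  have hlr := lp1_r_lt n hn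
  have hl0 : (0 : ℝ) < (rho n : ℝ) := by exact_mod_cast lp1_rho_pos n
  have hq0 : (0 : ℝ) < ((rho n - rN n - 1 : ℕ) : ℝ) := by
    have : 0 < rho n - rN n - 1 := by omega
    exact_mod_cast this
  unfold piN
  positivity

theorem lp1_piN_le_one (n : ℕ) : piN n ≤ 1 := by
  have hl0 : (0 : ℝ) < (rho n : ℝ) := by exact_mod_cast lp1_rho_pos n
  have h1 : ((rho n - rN n - 1 : ℕ) : ℝ) ≤ (rho n : ℝ) := by
    have : rho n - rN n - 1 ≤ rho n := by omega
    exact_mod_cast this
  have h2 : ((rho n - rN n - 1 : ℕ) : ℝ) / (rho n : ℝ) ≤ 1 := (div_le_one hl0).mpr h1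
  have h3 : (0 : ℝ) ≤ ((rho n - rN n - 1 : ℕ) : ℝ) / (rho n : ℝ) := by positivity
  unfold piN
  exact pow_le_one₀ h3 h2

/-- The ratio of `l - r - 1` to `l` is at least `1 - 7/(n+1)`. -/
theorem lp1_ratio_ge (n : ℕ) (hn : 4 ≤ n) :
    1 - 7 / ((n : ℝ) + 1) ≤ ((rho n - rN n - 1 : ℕ) : ℝ) / (rho n : ℝ) := by
  have hl0 : (0 : ℝ) < (rho n : ℝ) := by exact_mod_cast lp1_rho_pos n
  have hf1 : (1 : ℝ) ≤ (rho (n - 1) : ℝ) := by exact_mod_cast lp1_rho_pos (n - 1)
  have hrho : (rho n : ℝ) = ((n : ℝ) + 1) * (rho (n - 1) : ℝ) := by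
    obtain ⟨m, rfl⟩ : ∃ m, n = m + 1 := ⟨n - 1, by omega⟩
    simp only [Nat.add_sub_cancel]
    unfold rho
    rw [Nat.factorial_succ (m + 1)]
    push_cast
    ring
  have hr : (rN n : ℝ) = 4 * (rho (n - 1) : ℝ) + 2 := by
    unfold rN
    push_cast
    ring
  have hn1 : (0 : ℝ) < (n : ℝ) + 1 := by positivity
  rw [le_div_iff₀ hl0, lp1_cast_sub n hn, hr, hrho]
  have e : (1 - 7 / ((n : ℝ) + 1)) * (((n : ℝ) + 1) * (rho (n - 1) : ℝ))
      = ((n : ℝ) + 1) * (rho (n - 1) : ℝ) - 7 * (rho (n - 1) : ℝ) := by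
    field_simp
  rw [e]
  linarith

theorem lp1_tendsto_piN : Filter.Tendsto piN Filter.atTop (nhds 1) := by
  have h1 : Filter.Tendsto (fun n : ℕ => 1 - 7 / ((n : ℝ) + 1)) Filter.atTop (nhds 1) := by
    have h0 := (tendsto_one_div_add_atTop_nhds_zero_nat (𝕜 := ℝ)).const_mul 7
    have h2 := (tendsto_const_nhds (x := (1 : ℝ))).sub h0
    simp only [mul_zero, sub_zero] at h2
    refine h2.congr (fun n => ?_)
    ring
  have h3 : Filter.Tendsto (fun n : ℕ => ((rho n - rN n - 1 : ℕ) : ℝ) / (rho n : ℝ))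
      Filter.atTop (nhds 1) := by
    refine tendsto_of_tendsto_of_tendsto_of_le_of_le' h1 tendsto_const_nhds ?_ ?_
    · filter_upwards [Filter.eventually_ge_atTop 4] with n hn
      exact lp1_ratio_ge n hn
    · filter_upwards with n
      have hl0 : (0 : ℝ) < (rho n : ℝ) := by exact_mod_cast lp1_rho_pos n
      have h1 : ((rho n - rN n - 1 : ℕ) : ℝ) ≤ (rho n : ℝ) := by
        have : rho n - rN n - 1 ≤ rho n := by omega
        exact_mod_cast this
      exact (div_le_one hl0).mpr h1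
  have h4 := h3.pow 3
  rw [one_pow] at h4
  exact h4

theorem lp1_adm_tpp (t : ℕ → ℝ) (h : Adm t) (n : ℕ) (hn : 4 ≤ n) : Adm (tpp t n) := by
  have hpi := lp1_piN_pos n hn
  refine ⟨fun k => ?_, ?_⟩
  · unfold tpp
    split_ifs
    · exact div_nonneg (h.1 k) hpi.le
    · exact le_rfl
  · refine summable_of_ne_finset_zero (s := Finset.range n) (fun k hk => ?_)
    unfold tpp
    rw [if_neg (by simpa using hk)]

/-- `lp1_pointwise` in the spelling of the hypothesis `hpt` of `LP2`. -/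
theorem lp1_hpt (t : ℕ → ℝ) (h : Adm t) (n : ℕ) (hn : 4 ≤ n) (σ : ℝ) (hσ : 0 ≤ σ)
    (N : ℕ) (x : Fin N → E3) :
    (∏ i, ∏ j, if i = j then 1 else pairFactor (Phi (addAt t n σ)) (x i) (x j)) ≤
      ∏ a : Fin 3 → Fin (rho n), (gamN t n σ ^ N * ∏ i, ∏ j,
        if i = j then 1 else chiGrid (rho n) (shift (rho n) a) (gamN t n σ)
          (pairFactor (Phi (tpp t n))) (x i) (x j)) ^ (((rho n : ℝ) ^ 3)⁻¹) :=
  lp1_pointwise t h n hn σ hσ N x

theorem lp1_measurable_pairFactor (g : ℝ → ℝ) (hg : Measurable g) :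
    Measurable (Function.uncurry (pairFactor g)) := by
  have hd : Measurable (fun q : E3 × E3 => dist q.1 q.2) := continuous_dist.measurable
  exact ENNReal.measurable_ofReal.comp (Real.measurable_exp.comp (((hg.comp hd).neg).div_const 2))

theorem lp1_pairFactor_translate (g : ℝ → ℝ) (v x y : E3) :
    pairFactor g (x + v) (y + v) = pairFactor g x y := by
  unfold pairFactor
  rw [dist_add_right]

/-- The measure step LP2 for the concrete pair factors: the partition function of the box of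
side `K * rho n` for `t + σ e_n` against the one-cell partition function for `t''`. -/
theorem lp12 (t : ℕ → ℝ) (h : Adm t) (n : ℕ) (hn : 4 ≤ n) (σ : ℝ) (hσ : 0 ≤ σ) (K : ℕ)
    (c : ℝ≥0∞) :
    Vale.Agent.H27.PF.Xi volume
        ((Vale.Agent.H79.LP.box ((K : ℝ) * (rho n : ℝ))).indicator fun _ => c)
        (pairFactor (Phi (addAt t n σ)))
      ≤ (Vale.Agent.H27.PF.Xi volume ((cell (rho n) 0 0).indicator fun _ => c * gamN t n σ)
          (fun x y => gamN t n σ * pairFactor (Phi (tpp t n)) x y)) ^ ((K + 2) ^ 3) :=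
  Vale.Agent.H4.P171.LP2 (rho n) K (lp1_rho_pos n) c (gamN t n σ) _ _
    (lp1_measurable_pairFactor _ (measurable_Phi _ (lp1_adm_tpp t h n hn)))
    (fun v x y => lp1_pairFactor_translate _ v x y)
    (fun N x _ _ => lp1_hpt t h n hn σ hσ N x)

end Vale.Agent.H74.P171
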